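import Mathlib

/-! Ordered binary matrix removal: basic definitions. Binary entries are elements of `Fin 2`. -/

namespace Vale.Agent.P037

/-- `N_H(A)`: the number of ordered copies of `H` in `A`, i.e. of pairs of strictly increasing
index choices `r`, `c` with `A (r i) (c j) = H i j` for all `i, j`. -/
noncomputable def copies {k n : ℕ} (H : Matrix (Fin k) (Fin k) (Fin 2))
    (A : Matrix (Fin n) (Fin n) (Fin 2)) : ℕ :=
  Set.ncard {rc : (Fin k → Fin n) × (Fin k → Fin n) |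
    StrictMono rc.1 ∧ StrictMono rc.2 ∧ ∀ i j, A (rc.1 i) (rc.2 j) = H i j}

/-- The number of entries in which `A` and `B` differ. -/
noncomputable def edits {n : ℕ} (A B : Matrix (Fin n) (Fin n) (Fin 2)) : ℕ :=
  Set.ncard {p : Fin n × Fin n | A p.1 p.2 ≠ B p.1 p.2}

/-- `dist_H(A)`: the least number of entries in which `A` differs from an `H`-free matrix,
divided by `n ^ 2`. -/
noncomputable def distFree {k n : ℕ} (H : Matrix (Fin k) (Fin k) (Fin 2))
    (A : Matrix (Fin n) (Fin n) (Fin 2)) : ℝ :=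
  ((sInf {m : ℕ | ∃ B : Matrix (Fin n) (Fin n) (Fin 2), copies H B = 0 ∧ edits A B = m} : ℕ) : ℝ)
    / (n : ℝ) ^ 2

/-- The polynomial removal property of Q1 for the pattern `H`. -/
def PolyRemoval {k : ℕ} (H : Matrix (Fin k) (Fin k) (Fin 2)) : Prop :=
  ∃ c C : ℝ, 0 < c ∧ 0 < C ∧ ∀ n : ℕ, 1 ≤ n → ∀ ε : ℝ, 0 < ε → ε < 1 →
    ∀ A : Matrix (Fin n) (Fin n) (Fin 2), ε ≤ distFree H A →
      c * ε ^ C * (n : ℝ) ^ (2 * k) ≤ (copies H A : ℝ)

/-- The explicit `4 × 4` pattern. -/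
def pattern : Matrix (Fin 4) (Fin 4) (Fin 2) :=
  !![1, 1, 1, 1;
     1, 1, 0, 1;
     1, 0, 0, 0;
     1, 1, 0, 1]

end Vale.Agent.P037
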