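import Mathlib

namespace Vale.Agent.P037

open Finset

variable {α P : Type} [Fintype α] [Fintype P] [DecidableEq α] [DecidableEq P]

/-- number of changed entries in a row -/
def chg (D : α → α → Prop) [DecidableRel D] (u : α) : ℕ := (univ.filter fun v => D u v).card

omit [DecidableEq α] in
lemma sum_chg (D : α → α → Prop) [DecidableRel D] :
    ∑ u, chg D u = (univ.filter fun p : α × α => D p.1 p.2).card := by
  simp only [chg, card_filter]
  rw [Fintype.sum_prod_type]

omit [DecidableEq α] in
lemma bad_card (D : α → α → Prop) [DecidableRel D] (M : ℕ) (hD : 16 * ∑ u, chg D u < M ^ 2) :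
    2 * (univ.filter fun u => ¬ 8 * chg D u < M).card < M := by
  set S := univ.filter fun u => ¬ 8 * chg D u < M
  have h1 : S.card * M ≤ ∑ u ∈ S, 8 * chg D u := by
    rw [← smul_eq_mul]
    apply card_nsmul_le_sum
    intro u hu
    have := (mem_filter.1 hu).2
    omega
  have h2 : ∑ u ∈ S, 8 * chg D u ≤ ∑ u, 8 * chg D u :=
    sum_le_sum_of_subset (subset_univ _)
  rw [← mul_sum univ] at h2
  by_contra hc
  have h3 : M ≤ 2 * S.card := by omega
  have h4 : M * M ≤ 2 * S.card * M := Nat.mul_le_mul_right _ h3
  nlinarith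

omit [DecidableEq P] [DecidableEq α] in
lemma card_pre (ρ : P → α) (hρ : Function.Injective ρ) (Q : α → Prop) [DecidablePred Q] :
    (univ.filter fun p => Q (ρ p)).card ≤ (univ.filter Q).card := by
  apply card_le_card_of_injOn ρ
  · intro p hp
    simpa using hp
  · exact hρ.injOn

omit [DecidableEq α] in
lemma exists_not_mem_of_card_lt (S : Finset P) (hS : S.card < Fintype.card P) : ∃ p, p ∉ S := by
  by_contra hc
  push Not at hc
  have : S = univ := eq_univ_of_forall hc
  rw [this, card_univ] at hS
  omega

omit [DecidableEq α] in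
/-- choose free rows and columns avoiding all changed entries -/
theorem select (D : α → α → Prop) [DecidableRel D]
    (hD : 2 * (univ.filter fun u => ¬ 8 * chg D u < Fintype.card P).card < Fintype.card P)
    (ρ γ : Fin 4 → P → α) (hρ : ∀ i, Function.Injective (ρ i)) (hγ : ∀ i, Function.Injective (γ i))
    (fr fc : Fin 4 → Prop) (p0 : P)
    (gρ : ∀ i, 8 * chg D (ρ i p0) < Fintype.card P ∨ ¬ fr i)
    (gγ : ∀ j, 8 * chg (fun v u => D u v) (γ j p0) < Fintype.card P ∨ ¬ fc j) :
    ∃ s t : Fin 4 → P, (∀ i, fr i → s i = p0) ∧ (∀ j, fc j → t j = p0) ∧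
      ∀ i j, ¬ (fr i ∧ fc j) → ¬ D (ρ i (s i)) (γ j (t j)) := by
  classical
  set M := Fintype.card P with hM
  have hs : ∀ i, ∃ p, (fr i → p = p0) ∧ 8 * chg D (ρ i p) < M ∧
      (¬ fr i → ∀ j, fc j → ¬ D (ρ i p) (γ j p0)) := by
    intro i
    by_cases hi : fr i
    · exact ⟨p0, fun _ => rfl, (gρ i).resolve_right (not_not.2 hi), fun hh => absurd hi hh⟩
    · let S1 := univ.filter fun p => ¬ 8 * chg D (ρ i p) < M
      let T : Fin 4 → Finset P := fun j => univ.filter fun p => fc j ∧ D (ρ i p) (γ j p0)
      have c1 : S1.card ≤ _ := card_pre (ρ i) (hρ i) fun u => ¬ 8 * chg D u < M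
      have c2 : ∀ j, 8 * (T j).card ≤ M := by
        intro j
        by_cases hj : fc j
        · have := (gγ j).resolve_right (not_not.2 hj)
          have c3 := card_pre (ρ i) (hρ i) fun u => D u (γ j p0)
          have c4 : T j = univ.filter fun p => D (ρ i p) (γ j p0) := by
            simp [T, hj]
          rw [c4]
          simp only [chg] at this
          omega
        · simp [T, hj]
      have c5 : (S1 ∪ univ.biUnion T).card < M := by
        have := card_union_le S1 (univ.biUnion T)
        have h6 : (univ.biUnion T).card ≤ ∑ j, (T j).card := card_biUnion_le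
        rw [Fin.sum_univ_four] at h6
        have := c2 0
        have := c2 1
        have := c2 2
        have := c2 3
        omega
      obtain ⟨p, hp⟩ := exists_not_mem_of_card_lt _ c5
      simp only [mem_union, mem_biUnion, mem_univ, true_and, not_or, not_exists, S1, T,
        mem_filter, not_not, not_and] at hp
      exact ⟨p, fun hh => absurd hh hi, hp.1, fun _ j hj => hp.2 j hj⟩
  choose s hs1 hs2 hs3 using hs
  have ht : ∀ j, ∃ p, (fc j → p = p0) ∧ (¬ fc j → ∀ i, ¬ D (ρ i (s i)) (γ j p)) := by
    intro j
    by_cases hj : fc j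
    · exact ⟨p0, fun _ => rfl, fun hh => absurd hj hh⟩
    · let T : Fin 4 → Finset P := fun i => univ.filter fun p => D (ρ i (s i)) (γ j p)
      have c2 : ∀ i, 8 * (T i).card < M := by
        intro i
        have c3 := card_pre (γ j) (hγ j) fun v => D (ρ i (s i)) v
        have := hs2 i
        unfold chg at this
        simp only [T]
        omega
      have c5 : (univ.biUnion T).card < M := by
        have h6 : (univ.biUnion T).card ≤ ∑ j, (T j).card := card_biUnion_le
        rw [Fin.sum_univ_four] at h6
        have := c2 0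
        have := c2 1
        have := c2 2
        have := c2 3
        omega
      obtain ⟨p, hp⟩ := exists_not_mem_of_card_lt _ c5
      simp only [mem_biUnion, mem_univ, true_and, not_exists, T, mem_filter] at hp
      exact ⟨p, fun hh => absurd hh hj, fun _ => hp⟩
  choose t ht1 ht2 using ht
  refine ⟨s, t, hs1, ht1, fun i j hij => ?_⟩
  by_cases hj : fc j
  · have hi : ¬ fr i := fun hi => hij ⟨hi, hj⟩
    rw [ht1 j hj]
    exact hs3 i hi j hj
  · exact ht2 j hj i

end Vale.Agent.P037
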