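import Vale.Agent.P037.Struct
import Vale.Agent.P037.Select

set_option linter.unusedTactic false

namespace Vale.Agent.P037

open Finset

variable {h m : ℕ}

open Classical in
/-- the model matrix, indexed by abstract rows and columns -/
noncomputable def model (u v : El h m) : Fin 2 := if Ent h (dat u) (dat v) then 1 else 0

lemma model_one {u v : El h m} (H : Ent h (dat u) (dat v)) : model u v = 1 := by
  simp [model, H]

lemma model_zero {u v : El h m} (H : ¬ Ent h (dat u) (dat v)) : model u v = 0 := by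
  simp [model, H]

lemma fin2_ne_one {x : Fin 2} (H : x ≠ 1) : x = 0 := by omega

lemma fin2_ne_zero {x : Fin 2} (H : x ≠ 0) : x = 1 := by omega

lemma strictMono_four {β : Type} [Preorder β] (f : Fin 4 → β) (h01 : f 0 < f 1) (h12 : f 1 < f 2)
    (h23 : f 2 < f 3) : StrictMono f := by
  rw [Fin.strictMono_iff_lt_succ]
  intro i
  fin_cases i
  exacts [h01, h12, h23]

lemma inj_el (g : Fin 5) (a : Fin (h + 1)) (s : Bool) :
    Function.Injective fun p : Pt h m => ((g, a, s, p) : El h m) := by
  intro p q H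
  simpa using H

lemma lt_left (i : ℕ) (hi : i < h) (σ : Bool) (p q : Pt h m) (H : trunc i p.1 = trunc i q.1) :
    key ((2, ⟨i, by omega⟩, false, p) : El h m) < key ((2, ⟨i + 1, by omega⟩, σ, q) : El h m) := by
  refine key_lt_of_kap rfl i (fun k hk => ?_) ?_
  · have := trunc_eq_iff.1 H k hk
    have hk' : k < i + 1 := by omega
    simp [kap, hk, hk', this]
  · simp only [kap]
    simp
    split_ifs <;> omega

lemma lt_right (i : ℕ) (hi : i < h) (σ : Bool) (p q : Pt h m) (H : trunc i p.1 = trunc i q.1) :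
    key ((2, ⟨i + 1, by omega⟩, σ, q) : El h m) < key ((2, ⟨i, by omega⟩, true, p) : El h m) := by
  refine key_lt_of_kap rfl i (fun k hk => ?_) ?_
  · have := trunc_eq_iff.1 H k hk
    have hk' : k < i + 1 := by omega
    simp [kap, hk, hk', this]
  · simp only [kap]
    simp
    split_ifs <;> omega

section

variable (B : El h m → El h m → Fin 2)
  (free : ∀ r c : Fin 4 → El h m, StrictMono (key ∘ r) → StrictMono (key ∘ c) →
    ¬ ∀ i j, B (r i) (c j) = pattern i j)
  (hD : 2 * (univ.filter fun u => ¬ 8 * chg (fun u v => model u v ≠ B u v) u <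
    Fintype.card (Pt h m)).card < Fintype.card (Pt h m))
  (p0 : Pt h m)
  (gr : ∀ a s, 8 * chg (fun u v => model u v ≠ B u v) (2, a, s, p0) < Fintype.card (Pt h m))
  (gc : ∀ a s, 8 * chg (fun v u => model u v ≠ B u v) (2, a, s, p0) < Fintype.card (Pt h m))

include free hD gr gc

theorem clean (a a' : Fin (h + 1)) (σ τ : Bool) (H : (a' : ℕ) ≠ a ∨ (a' : ℕ) = h) :
    B (2, a, σ, p0) (2, a', τ, p0) = 0 := by
  apply fin2_ne_one
  intro h1
  let ρ : Fin 4 → Pt h m → El h m :=
    ![fun p => (1, a', false, p), fun p => (2, a, σ, p), fun p => (3, 0, false, p),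
      fun p => (4, 0, false, p)]
  let γ : Fin 4 → Pt h m → El h m :=
    ![fun p => (1, a, false, p), fun p => (2, a', τ, p), fun p => (3, 0, false, p),
      fun p => (4, 0, false, p)]
  obtain ⟨s, t, hs, ht, hst⟩ := select (fun u v => model u v ≠ B u v) hD ρ γ
    (fun i => by fin_cases i <;> exact inj_el _ _ _) (fun i => by fin_cases i <;> exact inj_el _ _ _)
    (fun i => i = 1) (fun i => i = 1) p0
    (fun i => by
      by_cases hi : i = 1
      · subst hi; exact Or.inl (gr _ _)
      · exact Or.inr hi)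
    (fun i => by
      by_cases hi : i = 1
      · subst hi; exact Or.inl (gc _ _)
      · exact Or.inr hi)
  refine free (fun i => ρ i (s i)) (fun j => γ j (t j)) ?_ ?_ ?_
  · apply strictMono_four <;> exact key_lt_of_group (by simp [ρ])
  · apply strictMono_four <;> exact key_lt_of_group (by simp [γ])
  · intro i j
    by_cases hij : i = 1 ∧ j = 1
    · obtain ⟨rfl, rfl⟩ := hij
      simp only [hs 1 rfl, ht 1 rfl]
      exact h1
    · have := hst i j hij
      rw [not_not] at this
      rw [← this]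
      fin_cases i <;> fin_cases j <;>
        first
        | exact absurd ⟨rfl, rfl⟩ hij
        | (refine model_zero ?_; simp [ρ, γ, dat, Ent]; done)
        | (refine model_one ?_; simp [ρ, γ, dat, Ent]; done)
        | (refine model_one ?_; simp only [ρ, γ, dat, Ent]; exact H)

theorem step (i : ℕ) (hi : i < h)
    (H : i = 0 ∨ ∀ σ τ, B (2, ⟨i, by omega⟩, σ, p0) (2, ⟨i, by omega⟩, τ, p0) = 1) (σ τ : Bool) :
    B (2, ⟨i + 1, by omega⟩, σ, p0) (2, ⟨i + 1, by omega⟩, τ, p0) = 1 := by
  apply fin2_ne_zero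
  intro h0
  let ρ : Fin 4 → Pt h m → El h m :=
    ![fun p => (0, ⟨i, by omega⟩, bit p0.1 i, p), fun p => (2, ⟨i, by omega⟩, false, p),
      fun p => (2, ⟨i + 1, by omega⟩, σ, p), fun p => (2, ⟨i, by omega⟩, true, p)]
  let γ : Fin 4 → Pt h m → El h m :=
    ![fun p => (0, ⟨i, by omega⟩, bit p0.1 i, p), fun p => (2, ⟨i, by omega⟩, false, p),
      fun p => (2, ⟨i + 1, by omega⟩, τ, p), fun p => (2, ⟨i, by omega⟩, true, p)]
  obtain ⟨s, t, hs, ht, hst⟩ := select (fun u v => model u v ≠ B u v) hD ρ γ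
    (fun i => by fin_cases i <;> exact inj_el _ _ _) (fun i => by fin_cases i <;> exact inj_el _ _ _)
    (fun k => k = 2 ∨ (k ≠ 0 ∧ i ≠ 0)) (fun k => k = 2 ∨ (k ≠ 0 ∧ i ≠ 0)) p0
    (fun k => by
      fin_cases k
      · exact Or.inr (by simp)
      all_goals exact Or.inl (gr _ _))
    (fun k => by
      fin_cases k
      · exact Or.inr (by simp)
      all_goals exact Or.inl (gc _ _))
  have s2 : s 2 = p0 := hs 2 (Or.inl rfl)
  have t2 : t 2 = p0 := ht 2 (Or.inl rfl)
  have sk : ∀ k, k ≠ 0 → trunc i (s k).1 = trunc i p0.1 := by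
    intro k hk
    by_cases h : i = 0
    · rw [trunc_eq_iff]; intro k hk; omega
    · rw [hs k (Or.inr ⟨hk, h⟩)]
  have tk : ∀ k, k ≠ 0 → trunc i (t k).1 = trunc i p0.1 := by
    intro k hk
    by_cases h : i = 0
    · rw [trunc_eq_iff]; intro k hk; omega
    · rw [ht k (Or.inr ⟨hk, h⟩)]
  have s1 := sk 1 (by decide)
  have s3 := sk 3 (by decide)
  have t1 := tk 1 (by decide)
  have t3 := tk 3 (by decide)
  refine free (fun i => ρ i (s i)) (fun j => γ j (t j)) ?_ ?_ ?_
  · apply strictMono_four
    · exact key_lt_of_group (by simp [ρ])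
    · exact lt_left i hi σ (s 1) (s 2) (by rw [s1, s2])
    · exact lt_right i hi σ (s 3) (s 2) (by rw [s3, s2])
  · apply strictMono_four
    · exact key_lt_of_group (by simp [γ])
    · exact lt_left i hi τ (t 1) (t 2) (by rw [t1, t2])
    · exact lt_right i hi τ (t 3) (t 2) (by rw [t3, t2])
  · intro k l
    have cl := clean B free hD p0 gr gc
    by_cases hkl : (k = 2 ∨ (k ≠ 0 ∧ i ≠ 0)) ∧ (l = 2 ∨ (l ≠ 0 ∧ i ≠ 0))
    · simp only [hs k hkl.1, ht l hkl.2]
      have H' : (k = 2 ∧ l = 2) ∨ ∀ σ τ,
          B (2, ⟨i, by omega⟩, σ, p0) (2, ⟨i, by omega⟩, τ, p0) = 1 := by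
        rcases H with H | H
        · left; simpa [H] using hkl
        · exact Or.inr H
      fin_cases k <;> fin_cases l <;>
        first
        | (exfalso; simp at hkl; done)
        | exact h0
        | (refine cl _ _ _ _ ?_; simp; done)
        | exact (H'.resolve_left (by decide)) _ _
    · have := hst k l hkl
      rw [not_not] at this
      rw [← this]
      fin_cases k <;> fin_cases l <;>
        first
        | exact absurd ⟨Or.inl rfl, Or.inl rfl⟩ hkl
        | (refine model_zero ?_; simp [ρ, γ, dat, Ent]; done)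
        | (refine model_one ?_
           simp [ρ, γ, dat, Ent, s1, s2, s3, t1, t2, t3, hi, colF_trunc]; done)

theorem contra (hh : 1 ≤ h) : False := by
  have all : ∀ i (hi : i < h), ∀ σ τ,
      B (2, ⟨i + 1, by omega⟩, σ, p0) (2, ⟨i + 1, by omega⟩, τ, p0) = 1 := by
    intro i
    induction i with
    | zero => intro hi; exact step B free hD p0 gr gc 0 hi (Or.inl rfl)
    | succ i ih => intro hi; exact step B free hD p0 gr gc (i + 1) hi (Or.inr (ih (by omega)))
  have h1 := all (h - 1) (by omega) false false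
  have h2 := clean B free hD p0 gr gc ⟨h - 1 + 1, by omega⟩ ⟨h - 1 + 1, by omega⟩ false false
    (Or.inr (by simp; omega))
  rw [h1] at h2
  exact absurd h2 (by decide)

end

theorem far (hh : 1 ≤ h) (B : El h m → El h m → Fin 2)
    (hD : 16 * (univ.filter fun p : El h m × El h m => model p.1 p.2 ≠ B p.1 p.2).card <
      Fintype.card (Pt h m) ^ 2) :
    ∃ r c : Fin 4 → El h m, StrictMono (key ∘ r) ∧ StrictMono (key ∘ c) ∧
      ∀ i j, B (r i) (c j) = pattern i j := by
  classical
  by_contra hc
  have free : ∀ r c : Fin 4 → El h m, StrictMono (key ∘ r) → StrictMono (key ∘ c) →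
      ¬ ∀ i j, B (r i) (c j) = pattern i j := fun r c h1 h2 h3 => hc ⟨r, c, h1, h2, h3⟩
  have b1 := bad_card (fun u v => model u v ≠ B u v) (Fintype.card (Pt h m))
    (by rw [sum_chg]; exact hD)
  have b2 := bad_card (fun v u => model u v ≠ B u v) (Fintype.card (Pt h m))
    (by
      rw [sum_chg]
      convert hD using 2
      exact card_bijective Prod.swap Prod.swap_bijective (by simp))
  set S1 := univ.filter fun u => ¬ 8 * chg (fun u v => model u v ≠ B u v) u <
    Fintype.card (Pt h m)
  set S2 := univ.filter fun u => ¬ 8 * chg (fun v u => model u v ≠ B u v) u <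
    Fintype.card (Pt h m)
  have c : ((S1 ∪ S2).image fun u => u.2.2.2).card < Fintype.card (Pt h m) := by
    have := card_image_le (s := S1 ∪ S2) (f := fun u => u.2.2.2)
    have := card_union_le S1 S2
    omega
  obtain ⟨p0, hp0⟩ := exists_not_mem_of_card_lt _ c
  refine contra B free b1 p0 (fun a s => ?_) (fun a s => ?_) hh
  · by_contra hn
    exact hp0 (mem_image.2 ⟨(2, a, s, p0), mem_union_left _ (mem_filter.2 ⟨mem_univ _, hn⟩), rfl⟩)
  · by_contra hn
    exact hp0 (mem_image.2 ⟨(2, a, s, p0), mem_union_right _ (mem_filter.2 ⟨mem_univ _, hn⟩), rfl⟩)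

end Vale.Agent.P037
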