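import Vale.Agent.P037.Far

namespace Vale.Agent.P037

open Finset

lemma exists_sorted {α β : Type} [Fintype α] [LinearOrder β] (f : α → β) {n : ℕ}
    (hn : Fintype.card α = n) : ∃ e : Fin n ≃ α, Monotone (f ∘ e) := by
  let e0 : Fin n ≃ α := (Fintype.equivFinOfCardEq hn).symm
  exact ⟨(Tuple.sort (f ∘ e0)).trans e0, Tuple.monotone_sort (f ∘ e0)⟩

lemma card_pt (h m : ℕ) : Fintype.card (Pt h m) = 2 ^ h * m := by
  simp [Pt, Path]

lemma card_el (h m : ℕ) : Fintype.card (El h m) = 10 * (h + 1) * 2 ^ h * m := by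
  simp [El, Pt, Path]
  ring

lemma zero_free (n : ℕ) : copies pattern (0 : Matrix (Fin n) (Fin n) (Fin 2)) = 0 := by
  unfold copies
  rw [Set.ncard_eq_zero (Set.toFinite _), Set.eq_empty_iff_forall_notMem]
  rintro ⟨r, c⟩ ⟨-, -, H⟩
  have := H 0 0
  simp [pattern] at this

lemma copies_le {h m n : ℕ} (e : Fin n ≃ El h m) (he : Monotone (key ∘ e)) :
    copies pattern (Matrix.of fun i j => model (e i) (e j)) ≤ n ^ 7 * (2 * m) := by
  unfold copies
  let f : (Fin 4 → Fin n) × (Fin 4 → Fin n) →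
      (Fin 4 → Fin n) × (Fin n × Fin n × Fin n) × (Bool × Fin m) :=
    fun rc => (rc.1, (rc.2 0, rc.2 1, rc.2 3), (e (rc.2 2)).2.2.1, (e (rc.2 2)).2.2.2.2)
  have leaf : ∀ rc : (Fin 4 → Fin n) × (Fin 4 → Fin n), (StrictMono rc.1 ∧ StrictMono rc.2 ∧
      ∀ i j, (Matrix.of fun i j => model (e i) (e j)) (rc.1 i) (rc.2 j) = pattern i j) →
      ((e (rc.2 2)).1 : ℕ) = 2 ∧ ((e (rc.2 2)).2.1 : ℕ) = h ∧
        (e (rc.2 2)).2.2.2.1 = (e (rc.1 2)).2.2.2.1 := by
    rintro ⟨r, c⟩ ⟨h1, h2, h3⟩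
    refine copy_leaf (e ∘ r) (e ∘ c) (he.comp h1.monotone) (he.comp h2.monotone) fun i j => ?_
    have := h3 i j
    simp only [Matrix.of_apply] at this
    rw [← this]
    constructor
    · exact model_one
    · intro H
      by_contra hn
      exact absurd (H.symm.trans (model_zero hn)) (by decide)
  have := Set.ncard_le_ncard_of_injOn f (s := {rc : (Fin 4 → Fin n) × (Fin 4 → Fin n) |
      StrictMono rc.1 ∧ StrictMono rc.2 ∧
      ∀ i j, (Matrix.of fun i j => model (e i) (e j)) (rc.1 i) (rc.2 j) = pattern i j})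
      (t := Set.univ) (fun _ _ => trivial) (by
    rintro ⟨r, c⟩ h1 ⟨r', c'⟩ h2 H
    obtain ⟨a1, a2, a3⟩ := leaf _ h1
    obtain ⟨b1, b2, b3⟩ := leaf _ h2
    simp only [f, Prod.mk.injEq] at H
    obtain ⟨rfl, ⟨k0, k1, k3⟩, k4, k5⟩ := H
    have k2 : c 2 = c' 2 := by
      apply e.injective
      simp only at a1 a2 a3 b1 b2 b3
      refine Prod.ext (Fin.ext (by omega)) (Prod.ext (Fin.ext (by omega))
        (Prod.ext k4 (Prod.ext (a3.trans b3.symm) k5)))
    refine Prod.ext rfl (funext fun j => ?_)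
    fin_cases j
    exacts [k0, k1, k2, k3]) (Set.toFinite _)
  refine this.trans (le_of_eq ?_)
  rw [Set.ncard_univ, Nat.card_eq_fintype_card]
  simp
  ring

lemma edits_ge {h m n : ℕ} (hh : 1 ≤ h) (e : Fin n ≃ El h m) (he : Monotone (key ∘ e))
    (B : Matrix (Fin n) (Fin n) (Fin 2)) (hB : copies pattern B = 0) :
    (2 ^ h * m) ^ 2 ≤ 16 * edits (Matrix.of fun i j => model (e i) (e j)) B := by
  classical
  by_contra hc
  have hed : edits (Matrix.of fun i j => model (e i) (e j)) B =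
      (univ.filter fun p : El h m × El h m =>
        model p.1 p.2 ≠ B (e.symm p.1) (e.symm p.2)).card := by
    unfold edits
    rw [Set.ncard_eq_toFinset_card']
    refine card_bijective (Prod.map e e) (e.bijective.prodMap e.bijective) ?_
    rintro ⟨i, j⟩
    rw [Set.mem_toFinset]
    simp
  obtain ⟨r, c, h1, h2, h3⟩ := far hh (fun u v => B (e.symm u) (e.symm v))
    (by rw [card_pt, ← hed]; omega)
  have sm : ∀ r : Fin 4 → El h m, StrictMono (key ∘ r) → StrictMono (e.symm ∘ r) := by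
    intro r hr i j hij
    by_contra hn
    have := he (not_lt.1 hn)
    simp only [Function.comp, Equiv.apply_symm_apply] at this
    exact absurd (hr hij) (not_lt.2 this)
  unfold copies at hB
  rw [Set.ncard_eq_zero (Set.toFinite _), Set.eq_empty_iff_forall_notMem] at hB
  exact hB (e.symm ∘ r, e.symm ∘ c) ⟨sm r h1, sm c h2, h3⟩

theorem family (h m n : ℕ) (hh : 1 ≤ h) (hm : 1 ≤ m) (hn : n = 10 * (h + 1) * 2 ^ h * m) :
    ∃ A : Matrix (Fin n) (Fin n) (Fin 2),
      1 / (1600 * ((h : ℝ) + 1) ^ 2) ≤ distFree pattern A ∧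
      (copies pattern A : ℝ) ≤ (n : ℝ) ^ 8 / 2 ^ h := by
  obtain ⟨e, he⟩ := exists_sorted (key (h := h) (m := m)) ((card_el h m).trans hn.symm)
  refine ⟨Matrix.of fun i j => model (e i) (e j), ?_, ?_⟩
  · unfold distFree
    have hne : {k : ℕ | ∃ B : Matrix (Fin n) (Fin n) (Fin 2), copies pattern B = 0 ∧
        edits (Matrix.of fun i j => model (e i) (e j)) B = k}.Nonempty :=
      ⟨_, 0, zero_free n, rfl⟩
    obtain ⟨B, hB, hk⟩ := Nat.sInf_mem hne
    rw [← hk]
    have h1 := edits_ge hh e he B hB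
    have h2 : ((2 : ℝ) ^ h * m) ^ 2 ≤
        16 * (edits (Matrix.of fun i j => model (e i) (e j)) B : ℝ) := by exact_mod_cast h1
    have hm' : (0 : ℝ) < m := by exact_mod_cast hm
    have hn' : (n : ℝ) = 10 * (h + 1) * 2 ^ h * m := by rw [hn]; push_cast; ring
    rw [div_le_div_iff₀ (by positivity) (by rw [hn']; positivity), hn']
    have : (0 : ℝ) < ((h : ℝ) + 1) ^ 2 := by positivity
    nlinarith
  · have h1 := copies_le e he
    have h2 : (copies pattern (Matrix.of fun i j => model (e i) (e j)) : ℝ) ≤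
        (n : ℝ) ^ 7 * (2 * m) := by exact_mod_cast h1
    have hn' : (n : ℝ) = 10 * (h + 1) * 2 ^ h * m := by rw [hn]; push_cast; ring
    refine h2.trans ?_
    rw [le_div_iff₀ (by positivity), pow_succ (n : ℝ) 7, mul_assoc]
    refine mul_le_mul_of_nonneg_left ?_ (by positivity)
    rw [hn']
    have : (0 : ℝ) ≤ 2 ^ h * m := by positivity
    have : (0 : ℝ) ≤ h * (2 ^ h * m) := by positivity
    nlinarith

theorem not_polyRemoval : ¬ PolyRemoval pattern := by
  rintro ⟨c, C, hc, hC, H⟩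
  have key : ∀ h : ℕ, 1 ≤ h → c * 2 ^ h ≤ (1600 * ((h : ℝ) + 1) ^ 2) ^ C := by
    intro h hh
    obtain ⟨A, h1, h2⟩ := family h 1 _ hh le_rfl rfl
    have hpos : (0 : ℝ) < 1600 * ((h : ℝ) + 1) ^ 2 := by positivity
    have h3 := H _ (Nat.succ_le_of_lt (by positivity)) _ (by positivity)
      (by
        rw [div_lt_one hpos]
        have : (0 : ℝ) ≤ h := by positivity
        nlinarith) A h1
    have h4 := h3.trans h2
    have hn : (0 : ℝ) < ((10 * (h + 1) * 2 ^ h * 1 : ℕ) : ℝ) ^ 8 := by positivity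
    rw [show 2 * 4 = 8 from rfl, le_div_iff₀ (by positivity), one_div,
      Real.inv_rpow hpos.le] at h4
    have h5 : c * ((1600 * ((h : ℝ) + 1) ^ 2) ^ C)⁻¹ * 2 ^ h ≤ 1 := by
      by_contra hcon
      push Not at hcon
      nlinarith
    have h6 : (0 : ℝ) < (1600 * ((h : ℝ) + 1) ^ 2) ^ C := Real.rpow_pos_of_pos hpos _
    calc c * 2 ^ h = (c * ((1600 * ((h : ℝ) + 1) ^ 2) ^ C)⁻¹ * 2 ^ h) *
          (1600 * ((h : ℝ) + 1) ^ 2) ^ C := by field_simp
      _ ≤ 1 * (1600 * ((h : ℝ) + 1) ^ 2) ^ C := mul_le_mul_of_nonneg_right h5 h6.le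
      _ = _ := one_mul _
  obtain ⟨N, hN⟩ := exists_nat_ge C
  have lim := tendsto_pow_const_div_const_pow_of_one_lt (2 * N) (r := 2) (by norm_num)
  have ev := lim.eventually (gt_mem_nhds (show (0 : ℝ) < c / 6400 ^ N by positivity))
  obtain ⟨h, hh, hh1⟩ := (ev.and (Filter.eventually_ge_atTop 1)).exists
  have k1 := key h hh1
  have hh' : (1 : ℝ) ≤ h := by exact_mod_cast hh1
  have k2 : (1600 * ((h : ℝ) + 1) ^ 2) ^ C ≤ (6400 * (h : ℝ) ^ 2) ^ N := by
    rw [← Real.rpow_natCast _ N]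
    calc (1600 * ((h : ℝ) + 1) ^ 2) ^ C ≤ (6400 * (h : ℝ) ^ 2) ^ C :=
          Real.rpow_le_rpow (by positivity) (by nlinarith) hC.le
      _ ≤ _ := Real.rpow_le_rpow_of_exponent_le (by nlinarith) hN
  rw [div_lt_div_iff₀ (by positivity) (by positivity)] at hh
  rw [mul_pow, ← pow_mul] at k2
  nlinarith

end Vale.Agent.P037
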