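import Mathlib.Tactic

namespace Vale.Agent.P037

/-- abstract data of a row or column -/
structure Dat (Q : Type) where
  g : ℕ
  a : ℕ
  s : Bool
  c : Bool
  w : Q

/-- abstract entry relation -/
def Ent {Q : Type} (h : ℕ) (u v : Dat Q) : Prop :=
  match u.g, v.g with
  | 0, 0 => u.a = v.a ∧ u.s = v.s
  | 0, 2 => v.a = u.a ∨ (v.a = u.a + 1 ∧ v.c = u.s)
  | 2, 0 => u.a = v.a ∨ (u.a = v.a + 1 ∧ u.c = v.s)
  | 1, 1 => u.a ≠ v.a ∨ u.a = h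
  | 1, 2 => u.a = v.a
  | 2, 1 => u.a = v.a
  | 2, 2 => u.a = v.a ∧ u.a < h ∧ u.w = v.w
  | 1, 3 => True
  | 1, 4 => True
  | 3, 1 => True
  | 4, 1 => True
  | 2, 4 => True
  | 4, 2 => True
  | 4, 4 => True
  | _, _ => False

/-- weak order information -/
def Le {Q : Type} (u v : Dat Q) : Prop := u.g ≤ v.g ∧ (u.g = 0 → v.g = 0 → u.a ≤ v.a)

set_option maxHeartbeats 2000000 in
theorem roles {Q : Type} (h : ℕ) (F : ℕ → Q → Bool) (r0 r1 r2 r3 c0 c1 c2 c3 : Dat Q)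
    (hr3 : r3.g ≤ 4) (hc3 : c3.g ≤ 4)
    (f0 : r0.c = F r0.a r0.w) (f1 : r1.c = F r1.a r1.w) (f2 : r2.c = F r2.a r2.w)
    (f3 : r3.c = F r3.a r3.w) (f4 : c0.c = F c0.a c0.w) (f5 : c1.c = F c1.a c1.w)
    (f6 : c2.c = F c2.a c2.w) (f7 : c3.c = F c3.a c3.w)
    (l01 : Le r0 r1) (l12 : Le r1 r2) (l23 : Le r2 r3)
    (m01 : Le c0 c1) (m12 : Le c1 c2) (m23 : Le c2 c3)
    (e00 : Ent h r0 c0) (e01 : Ent h r0 c1) (e02 : Ent h r0 c2) (e03 : Ent h r0 c3)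
    (e10 : Ent h r1 c0) (e11 : Ent h r1 c1) (e12 : ¬ Ent h r1 c2) (e13 : Ent h r1 c3)
    (e20 : Ent h r2 c0) (e21 : ¬ Ent h r2 c1) (e22 : ¬ Ent h r2 c2) (e23 : ¬ Ent h r2 c3)
    (e30 : Ent h r3 c0) (e31 : Ent h r3 c1) (e32 : ¬ Ent h r3 c2) (e33 : Ent h r3 c3) :
    r0.g = 0 ∧ r1.g = 2 ∧ r2.g = 2 ∧ r3.g = 2 ∧ c0.g = 0 ∧ c1.g = 2 ∧ c2.g = 2 ∧ c3.g = 2 := by
  obtain ⟨g0, a0, s0, k0, w0⟩ := r0
  obtain ⟨g1, a1, s1, k1, w1⟩ := r1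
  obtain ⟨g2, a2, s2, k2, w2⟩ := r2
  obtain ⟨g3, a3, s3, k3, w3⟩ := r3
  obtain ⟨g4, a4, s4, k4, w4⟩ := c0
  obtain ⟨g5, a5, s5, k5, w5⟩ := c1
  obtain ⟨g6, a6, s6, k6, w6⟩ := c2
  obtain ⟨g7, a7, s7, k7, w7⟩ := c3
  simp only [Le] at l01 l12 l23 m01 m12 m23
  simp only at hr3 hc3 f0 f1 f2 f3 f4 f5 f6 f7 ⊢
  obtain ⟨l01, l01'⟩ := l01
  obtain ⟨l12, l12'⟩ := l12
  obtain ⟨l23, l23'⟩ := l23
  obtain ⟨m01, m01'⟩ := m01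
  obtain ⟨m12, m12'⟩ := m12
  obtain ⟨m23, m23'⟩ := m23
  have b2 : g2 ≤ 4 := by omega
  have b6 : g6 ≤ 4 := by omega
  have b5 : g5 ≤ 4 := by omega
  have b4 : g4 ≤ 4 := by omega
  interval_cases g2 <;> interval_cases g4 <;> simp only [Ent] at e20 <;>
  interval_cases g5 <;> (try simp only [Ent, not_true_eq_false] at e21) <;>
  interval_cases g1 <;> simp only [Ent] at e10 e11 <;>
  interval_cases g0 <;> simp only [Ent] at e00 e01 <;>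
  interval_cases g6 <;> simp only [Ent, not_true_eq_false] at e02 e12 e22 <;>
  interval_cases g7 <;> simp only [Ent, not_true_eq_false] at e03 e13 e23 <;>
  interval_cases g3 <;> simp only [Ent, not_true_eq_false] at e30 e31 e32 e33 <;>
  grind

end Vale.Agent.P037
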