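import Vale.Agent.P037.Defs
import Vale.Agent.P037.Roles

namespace Vale.Agent.P037

abbrev Path (h : ℕ) := Fin h → Bool
abbrev Pt (h m : ℕ) := Path h × Fin m
abbrev El (h m : ℕ) := Fin 5 × Fin (h + 1) × Bool × Pt h m

variable {h m : ℕ}

def bit (p : Path h) (i : ℕ) : Bool := if hi : i < h then p ⟨i, hi⟩ else false

def trunc (a : ℕ) (p : Path h) : Path h := fun k => if (k : ℕ) < a then p k else false

def colF (a : ℕ) (w : Path h) : Bool := bit w (a - 1)

def dat (u : El h m) : Dat (Path h) :=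
  ⟨u.1, u.2.1, u.2.2.1, colF u.2.1 (trunc u.2.1 u.2.2.2.1), trunc u.2.1 u.2.2.2.1⟩

def kap (u : El h m) (k : ℕ) : ℕ :=
  if (u.1 : ℕ) = 2 then
    (if k < u.2.1 then (if bit u.2.2.2.1 k then 2 else 1)
      else if k = u.2.1 then (if u.2.2.1 then 3 else 0) else 0)
  else u.2.1

def key (u : El h m) : Lex (ℕ → ℕ) :=
  toLex fun n => match n with
    | 0 => (u.1 : ℕ)
    | k + 1 => kap u k

lemma trunc_eq_iff {a : ℕ} {p q : Path h} :
    trunc a p = trunc a q ↔ ∀ k < a, bit p k = bit q k := by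
  constructor
  · intro H k hk
    unfold bit
    split_ifs with hi
    · have := congrFun H ⟨k, hi⟩
      simpa [trunc, hk] using this
    · rfl
  · intro H
    funext k
    unfold trunc
    split_ifs with hk
    · have := H k hk
      simpa [bit, k.2] using this
    · rfl

lemma trunc_self (p : Path h) : trunc h p = p := by
  funext k
  simp [trunc, k.2]

lemma colF_trunc (a : ℕ) (p : Path h) : colF (a + 1) (trunc (a + 1) p) = bit p a := by
  unfold colF bit trunc
  simp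

lemma lex_between {f g f' : ℕ → ℕ} (h1 : toLex f ≤ toLex g) (h2 : toLex g ≤ toLex f') (i : ℕ)
    (H : ∀ k < i, f k = f' k) : ∀ k < i, g k = f k := by
  intro k
  induction k using Nat.strong_induction_on with
  | _ k ih =>
    intro hk
    have a1 : f k ≤ g k := Pi.apply_le_of_toLex h1 fun j hj => (ih j hj (by omega)).symm
    have a2 : g k ≤ f' k := Pi.apply_le_of_toLex h2 fun j hj => by
      rw [ih j hj (by omega), H j (by omega)]
    have := H k hk
    omega

lemma le_of_key {u v : El h m} (H : key u ≤ key v) : Le (dat u) (dat v) := by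
  have h0 : (u.1 : ℕ) ≤ v.1 := by
    have := Pi.apply_le_of_toLex (i := 0) H (by simp)
    simpa using this
  refine ⟨h0, fun hu hv => ?_⟩
  simp only [dat] at hu hv ⊢
  have h1 := Pi.apply_le_of_toLex (i := 1) H (by
    intro j hj
    obtain rfl : j = 0 := by omega
    simp [hu, hv])
  simpa [kap, hu, hv] using h1

lemma key_lt_of_group {u v : El h m} (H : (u.1 : ℕ) < v.1) : key u < key v :=
  ⟨0, by simp, H⟩

lemma key_lt_of_kap {u v : El h m} (H : (u.1 : ℕ) = v.1) (i : ℕ)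
    (H1 : ∀ k < i, kap u k = kap v k) (H2 : kap u i < kap v i) : key u < key v := by
  refine ⟨i + 1, fun j hj => ?_, H2⟩
  rcases j with _ | j
  · exact H
  · exact H1 j (by omega)

lemma between {u x v : El h m} (hu : (u.1 : ℕ) = 2) (hx : (x.1 : ℕ) = 2) (hv : (v.1 : ℕ) = 2)
    (h1 : key u ≤ key x) (h2 : key x ≤ key v) (ha : (u.2.1 : ℕ) = v.2.1)
    (hw : trunc u.2.1 u.2.2.2.1 = trunc v.2.1 v.2.2.2.1) :
    (u.2.1 : ℕ) ≤ x.2.1 ∧ trunc u.2.1 x.2.2.2.1 = trunc u.2.1 u.2.2.2.1 := by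
  rw [← ha, trunc_eq_iff] at hw
  have key' := lex_between h1 h2 (u.2.1 + 1) (by
    intro k hk
    rcases k with _ | k
    · simp [hu, hv]
    · have hk' : k < u.2.1 := by omega
      have hk'' : k < v.2.1 := by omega
      simp [kap, hu, hv, hk', hk'', hw k hk'])
  have kk : ∀ k < (u.2.1 : ℕ), kap x k = kap u k := fun k hk => key' (k + 1) (by omega)
  have lev : (u.2.1 : ℕ) ≤ x.2.1 := by
    by_contra hc
    have hc' : (x.2.1 : ℕ) < u.2.1 := by omega
    have := kk _ hc'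
    simp only [kap, hu, hx, hc', if_true, lt_irrefl, if_false] at this
    split_ifs at this <;> omega
  refine ⟨lev, trunc_eq_iff.2 fun k hk => ?_⟩
  have := kk k hk
  have hk' : k < x.2.1 := by omega
  simp only [kap, hu, hx, hk, hk', if_true] at this
  cases hb : bit x.2.2.2.1 k <;> cases hb' : bit u.2.2.2.1 k <;> simp_all

/-- every copy in the model matrix has its middle row and middle column in the same leaf -/
theorem copy_leaf (r c : Fin 4 → El h m) (hr : Monotone (key ∘ r)) (hc : Monotone (key ∘ c))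
    (H : ∀ i j, Ent h (dat (r i)) (dat (c j)) ↔ pattern i j = 1) :
    ((c 2).1 : ℕ) = 2 ∧ ((c 2).2.1 : ℕ) = h ∧ (c 2).2.2.2.1 = (r 2).2.2.2.1 := by
  have e00 := (H 0 0).2 rfl
  have e01 := (H 0 1).2 rfl
  have e02 := (H 0 2).2 rfl
  have e03 := (H 0 3).2 rfl
  have e10 := (H 1 0).2 rfl
  have e11 := (H 1 1).2 rfl
  have e12 : ¬ _ := fun hh => absurd ((H 1 2).1 hh) (by decide)
  have e13 := (H 1 3).2 rfl
  have e20 := (H 2 0).2 rfl
  have e21 : ¬ _ := fun hh => absurd ((H 2 1).1 hh) (by decide)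
  have e22 : ¬ _ := fun hh => absurd ((H 2 2).1 hh) (by decide)
  have e23 : ¬ _ := fun hh => absurd ((H 2 3).1 hh) (by decide)
  have e30 := (H 3 0).2 rfl
  have e31 := (H 3 1).2 rfl
  have e32 : ¬ _ := fun hh => absurd ((H 3 2).1 hh) (by decide)
  have e33 := (H 3 3).2 rfl
  have r01 : key (r 0) ≤ key (r 1) := hr (by decide)
  have r12 : key (r 1) ≤ key (r 2) := hr (by decide)
  have r23 : key (r 2) ≤ key (r 3) := hr (by decide)
  have c01 : key (c 0) ≤ key (c 1) := hc (by decide)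
  have c12 : key (c 1) ≤ key (c 2) := hc (by decide)
  have c23 : key (c 2) ≤ key (c 3) := hc (by decide)
  obtain ⟨g0, g1, g2, g3, g4, g5, g6, g7⟩ := roles h colF (dat (r 0)) (dat (r 1)) (dat (r 2))
    (dat (r 3)) (dat (c 0)) (dat (c 1)) (dat (c 2)) (dat (c 3))
    (by have := (r 3).1.2; simp only [dat]; omega) (by have := (c 3).1.2; simp only [dat]; omega)
    rfl rfl rfl rfl rfl rfl rfl rfl (le_of_key r01) (le_of_key r12) (le_of_key r23)
    (le_of_key c01) (le_of_key c12) (le_of_key c23)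
    e00 e01 e02 e03 e10 e11 e12 e13 e20 e21 e22 e23 e30 e31 e32 e33
  simp only [Ent, g0, g1, g2, g3, g4, g5, g6, g7] at e00 e01 e02 e03 e10 e11 e12 e13 e20 e21 e22 e23 e30 e31 e32 e33
  simp only [dat] at g0 g1 g2 g3 g4 g5 g6 g7 e00 e01 e02 e03 e10 e11 e12 e13 e20 e21 e22 e23 e30 e31 e32 e33
  obtain ⟨bx1, bx2⟩ := between g1 g2 g3 r12 r23 (by omega) (e11.2.2.trans e31.2.2.symm)
  obtain ⟨by1, by2⟩ := between g5 g6 g7 c12 c23 (by omega) (e11.2.2.symm.trans e13.2.2)
  have nx : ((r 2).2.1 : ℕ) ≠ (r 1).2.1 := by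
    intro hh
    apply e21
    refine ⟨by omega, by omega, ?_⟩
    rw [hh, bx2, e11.2.2]
  have ny : ((c 2).2.1 : ℕ) ≠ (c 1).2.1 := by
    intro hh
    apply e12
    refine ⟨by omega, by omega, ?_⟩
    rw [hh, by2, e11.2.2]
  have lx : ((r 2).2.1 : ℕ) = (r 1).2.1 + 1 := by omega
  have ly : ((c 2).2.1 : ℕ) = (r 1).2.1 + 1 := by omega
  have l0 : ((r 0).2.1 : ℕ) = (r 1).2.1 := by omega
  have cx : bit (r 2).2.2.2.1 (r 1).2.1 = (c 0).2.2.1 := by
    rcases e20 with e | e
    · omega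
    · rw [← e.2, lx, colF_trunc]
  have cy : bit (c 2).2.2.2.1 (r 1).2.1 = (r 0).2.2.1 := by
    rcases e02 with e | e
    · omega
    · rw [← e.2, ly, colF_trunc]
  have tt : trunc ((r 1).2.1 + 1) (r 2).2.2.2.1 = trunc ((r 1).2.1 + 1) (c 2).2.2.2.1 := by
    rw [trunc_eq_iff]
    intro k hk
    rcases Nat.lt_succ_iff_lt_or_eq.1 hk with hk | rfl
    · have t1 := trunc_eq_iff.1 bx2 k hk
      have t2 := trunc_eq_iff.1 by2 k (by omega)
      have t3 : trunc (r 1).2.1 (r 1).2.2.2.1 = trunc (r 1).2.1 (c 1).2.2.2.1 := by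
        rw [e11.2.2, e11.1]
      have t4 := trunc_eq_iff.1 t3 k hk
      rw [t1, t2, t4]
    · rw [cx, cy, e00.2]
  have top : ((r 1).2.1 : ℕ) + 1 = h := by
    by_contra hne
    apply e22
    have := (r 2).2.1.2
    refine ⟨by omega, by omega, ?_⟩
    rw [lx, ly, tt]
  refine ⟨g6, by omega, ?_⟩
  rw [top, trunc_self, trunc_self] at tt
  exact tt.symm

end Vale.Agent.P037
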